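import Vale.Agent.P287.R2.H248.Pert

/-!
P287: the parameters `t` for which the surface `F - t ℓ ^ 3` contains a line form a closed set.
-/

namespace Vale.Agent.P287.R2.H946

open Module Submodule Vale.Agent.P287.R2.H248

open scoped InnerProductSpace

/-- A trilinear form in coordinates. -/
lemma tri_expand (T : (Fin 4 → ℂ) →ₗ[ℂ] (Fin 4 → ℂ) →ₗ[ℂ] (Fin 4 → ℂ) →ₗ[ℂ] ℂ)
    (u v w : Fin 4 → ℂ) : T u v w = ∑ i, u i * ∑ j, v j * ∑ k, w k *
      T (fun m => if i = m then 1 else 0) (fun m => if j = m then 1 else 0)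
        (fun m => if k = m then 1 else 0) := by
  rw [LinearMap.pi_apply_eq_sum_univ T u, LinearMap.sum_apply, LinearMap.sum_apply]
  refine Finset.sum_congr rfl fun i _ => ?_
  rw [LinearMap.smul_apply, LinearMap.smul_apply, smul_eq_mul]
  congr 1
  rw [LinearMap.pi_apply_eq_sum_univ (T _) v, LinearMap.sum_apply]
  refine Finset.sum_congr rfl fun j _ => ?_
  rw [LinearMap.smul_apply, smul_eq_mul]
  congr 1
  rw [LinearMap.pi_apply_eq_sum_univ (T _ _) w]
  refine Finset.sum_congr rfl fun k _ => ?_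
  rw [smul_eq_mul]

/-- A trilinear form is continuous. -/
lemma tri_continuous {X : Type*} [TopologicalSpace X]
    (T : (Fin 4 → ℂ) →ₗ[ℂ] (Fin 4 → ℂ) →ₗ[ℂ] (Fin 4 → ℂ) →ₗ[ℂ] ℂ)
    {u v w : X → Fin 4 → ℂ} (hu : Continuous u) (hv : Continuous v) (hw : Continuous w) :
    Continuous fun x => T (u x) (v x) (w x) := by
  have h := funext fun x => tri_expand T (u x) (v x) (w x)
  rw [h]
  fun_prop

/-- The form of the pencil is continuous in all variables. -/
lemma pert_continuous {X : Type*} [TopologicalSpace X] (S : Tri (Fin 4 → ℂ))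
    (l : (Fin 4 → ℂ) →ₗ[ℂ] ℂ) {t : X → ℂ} {u v w : X → Fin 4 → ℂ} (ht : Continuous t)
    (hu : Continuous u) (hv : Continuous v) (hw : Continuous w) :
    Continuous fun x => (S.pert l (t x)).T (u x) (v x) (w x) := by
  have hl : Continuous l := LinearMap.continuous_of_finiteDimensional l
  simp_rw [Tri.pert_T]
  exact (tri_continuous S.T hu hv hw).sub
    (ht.mul ((hl.comp hu).mul ((hl.comp hv).mul (hl.comp hw))))

/-- Euclidean space. -/
abbrev E := EuclideanSpace ℂ (Fin 4)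

/-- The orthonormal pairs. -/
def K : Set (E × E) := {p | ‖p.1‖ = 1 ∧ ‖p.2‖ = 1 ∧ ⟪p.1, p.2⟫_ℂ = 0}

lemma isCompact_K : IsCompact K := by
  have h1 : IsClosed K := by
    apply IsClosed.inter (isClosed_eq (by fun_prop) continuous_const)
    exact IsClosed.inter (isClosed_eq (by fun_prop) continuous_const)
      (isClosed_eq (by fun_prop) continuous_const)
  refine Metric.isCompact_of_isClosed_isBounded h1 ?_
  refine (Metric.isBounded_closedBall (x := (0 : E × E)) (r := 1)).subset ?_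
  rintro p ⟨hp, hq, -⟩
  rw [mem_closedBall_zero_iff, Prod.norm_def, hp, hq, max_self]

/-- Every line has an orthonormal basis. -/
lemma exists_orthonormal {U : Submodule ℂ (Fin 4 → ℂ)} (hU : finrank ℂ U = 2) :
    ∃ p ∈ K, (WithLp.ofLp p.1 : Fin 4 → ℂ) ∈ U ∧ (WithLp.ofLp p.2 : Fin 4 → ℂ) ∈ U := by
  let e : E ≃ₗ[ℂ] (Fin 4 → ℂ) := WithLp.linearEquiv 2 ℂ (Fin 4 → ℂ)
  let U' : Submodule ℂ E := U.comap e.toLinearMap
  have h1 : finrank ℂ U' = 2 := by
    have h2 : U' = U.map e.symm.toLinearMap := Submodule.comap_equiv_eq_map_symm e U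
    rw [h2, LinearEquiv.finrank_map_eq e.symm, hU]
  let b := (stdOrthonormalBasis ℂ U').reindex (finCongr h1)
  refine ⟨((b 0 : E), (b 1 : E)), ⟨?_, ?_, ?_⟩, (b 0).2, (b 1).2⟩
  · exact b.orthonormal.1 0
  · exact b.orthonormal.1 1
  · exact b.orthonormal.2 (by decide)

/-- An orthonormal pair spans a line. -/
lemma finrank_span {p : E × E} (hp : p ∈ K) :
    finrank ℂ (span ℂ {(WithLp.ofLp p.1 : Fin 4 → ℂ), (WithLp.ofLp p.2 : Fin 4 → ℂ)}) = 2 := by
  obtain ⟨h1, h2, h3⟩ := hp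
  have h4 : Orthonormal ℂ ![p.1, p.2] := by
    constructor
    · intro i
      fin_cases i
      · exact h1
      · exact h2
    · intro i j hij
      fin_cases i <;> fin_cases j
      · exact absurd rfl hij
      · exact h3
      · exact inner_eq_zero_symm.mp h3
      · exact absurd rfl hij
  let e : E ≃ₗ[ℂ] (Fin 4 → ℂ) := WithLp.linearEquiv 2 ℂ (Fin 4 → ℂ)
  have h5 : LinearIndependent ℂ (e ∘ ![p.1, p.2]) :=
    h4.linearIndependent.map' e.toLinearMap e.ker
  have h6 := finrank_span_eq_card h5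
  have h7 : Set.range (e ∘ ![p.1, p.2]) =
      {(WithLp.ofLp p.1 : Fin 4 → ℂ), (WithLp.ofLp p.2 : Fin 4 → ℂ)} := by
    rw [Set.range_comp, Matrix.range_cons, Matrix.range_cons, Matrix.range_empty, Set.union_empty,
      Set.image_union, Set.image_singleton, Set.image_singleton]
    rfl
  rw [h7, Fintype.card_fin] at h6
  exact h6

/-- The parameters `t` for which `F - t ℓ ^ 3` contains a line form a closed set. -/
theorem closed_line (S : Tri (Fin 4 → ℂ)) (l : (Fin 4 → ℂ) →ₗ[ℂ] ℂ) :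
    IsClosed {t : ℂ | ∃ U : Submodule ℂ (Fin 4 → ℂ), finrank ℂ U = 2 ∧ (S.pert l t).Iso U} := by
  have : CompactSpace K := isCompact_iff_compactSpace.mp isCompact_K
  let Z : Set (ℂ × K) := {x | (S.pert l x.1).T (WithLp.ofLp x.2.1.1) (WithLp.ofLp x.2.1.1)
      (WithLp.ofLp x.2.1.1) = 0 ∧ (S.pert l x.1).T (WithLp.ofLp x.2.1.1) (WithLp.ofLp x.2.1.1)
      (WithLp.ofLp x.2.1.2) = 0 ∧ (S.pert l x.1).T (WithLp.ofLp x.2.1.1) (WithLp.ofLp x.2.1.2)
      (WithLp.ofLp x.2.1.2) = 0 ∧ (S.pert l x.1).T (WithLp.ofLp x.2.1.2) (WithLp.ofLp x.2.1.2)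
      (WithLp.ofLp x.2.1.2) = 0}
  have hc1 : Continuous fun x : ℂ × K => (WithLp.ofLp x.2.1.1 : Fin 4 → ℂ) :=
    (PiLp.continuous_ofLp 2 _).comp
      (continuous_fst.comp (continuous_subtype_val.comp continuous_snd))
  have hc2 : Continuous fun x : ℂ × K => (WithLp.ofLp x.2.1.2 : Fin 4 → ℂ) :=
    (PiLp.continuous_ofLp 2 _).comp
      (continuous_snd.comp (continuous_subtype_val.comp continuous_snd))
  have hZ : IsClosed Z := by
    refine IsClosed.inter (isClosed_eq (pert_continuous S l continuous_fst hc1 hc1 hc1)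
      continuous_const) ?_
    refine IsClosed.inter (isClosed_eq (pert_continuous S l continuous_fst hc1 hc1 hc2)
      continuous_const) ?_
    exact IsClosed.inter (isClosed_eq (pert_continuous S l continuous_fst hc1 hc2 hc2)
      continuous_const) (isClosed_eq (pert_continuous S l continuous_fst hc2 hc2 hc2)
      continuous_const)
  have h := isClosedMap_fst_of_compactSpace (X := ℂ) (Y := K) Z hZ
  convert h using 1
  ext t
  constructor
  · rintro ⟨U, hU, hI⟩
    obtain ⟨p, hp, h1, h2⟩ := exists_orthonormal hU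
    refine ⟨(t, ⟨p, hp⟩), ⟨?_, ?_, ?_, ?_⟩, rfl⟩
    · exact hI.three h1 h1 h1
    · exact hI.three h1 h1 h2
    · exact hI.three h1 h2 h2
    · exact hI.three h2 h2 h2
  · rintro ⟨⟨t', p, hp⟩, ⟨h1, h2, h3, h4⟩, rfl⟩
    exact ⟨_, finrank_span hp, Tri.iso_span_pair h1 h2 h3 h4⟩

end Vale.Agent.P287.R2.H946
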