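import Vale.Agent.P287.R2.H248.Eckardt

/-!
P287: from lines on smooth cubic surfaces to planes through the Eckardt points of smooth cubic
fourfolds.
-/

namespace Vale.Agent.P287.R2.H946

open Module Submodule Vale.Agent.P287.R2.H248 Vale.Agent.P287.R2.H248.Tri

variable {V : Type*} [AddCommGroup V] [Module ℂ V] {S : Tri V}

/-- Every smooth cubic surface contains a line, in any coordinates. -/
theorem line_any
    (hline : ∀ S : Tri (Fin 4 → ℂ), S.Smooth →
      ∃ U : Submodule ℂ (Fin 4 → ℂ), finrank ℂ U = 2 ∧ S.Iso U)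
    [FiniteDimensional ℂ V] (hV : finrank ℂ V = 4) (hS : S.Smooth) :
    ∃ U : Submodule ℂ V, finrank ℂ U = 2 ∧ S.Iso U := by
  let e : (Fin 4 → ℂ) ≃ₗ[ℂ] V := LinearEquiv.ofFinrankEq _ _ (by rw [hV]; simp)
  have hS' : (S.comap e.toLinearMap).Smooth := by
    intro v hv
    have h1 : e v = 0 := by
      apply hS
      intro w
      have h2 := hv (e.symm w)
      rw [comap_T] at h2
      simpa using h2
    exact e.map_eq_zero_iff.mp h1
  obtain ⟨U, hU, hI⟩ := hline _ hS'
  refine ⟨U.map e.toLinearMap, ?_, ?_⟩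
  · rw [LinearEquiv.finrank_map_eq e U, hU]
  · intro u hu
    obtain ⟨x, hx, rfl⟩ := Submodule.mem_map.mp hu
    exact hI x hx

/-- The tangent space of a smooth cubic fourfold at a point. -/
lemma finrank_tangent [FiniteDimensional ℂ V] (hS : S.Smooth) (hV : finrank ℂ V = 6)
    {p : V} (hp0 : p ≠ 0) : finrank ℂ ↥(LinearMap.ker (S.T p p)) = 5 := by
  have h0 : S.T p p ≠ 0 := by
    intro h0
    apply hp0
    apply hS
    intro w
    rw [h0]
    rfl
  have h1 : finrank ℂ ↥(LinearMap.ker (S.T p p)) + 1 = finrank ℂ V :=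
    Module.Dual.finrank_ker_add_one_of_ne_zero (f := S.T p p) h0
  omega

/-- **Through every Eckardt point of a smooth cubic fourfold there is a plane in it.** -/
theorem plane_of_eckardt
    (hline : ∀ S : Tri (Fin 4 → ℂ), S.Smooth →
      ∃ U : Submodule ℂ (Fin 4 → ℂ), finrank ℂ U = 2 ∧ S.Iso U)
    [FiniteDimensional ℂ V] (hS : S.Smooth) (hV : finrank ℂ V = 6) {p : V} (hE : S.Eckardt p) :
    ∃ P : Submodule ℂ V, finrank ℂ P = 3 ∧ S.Iso P ∧ p ∈ P := by
  have hE' := hE
  obtain ⟨hp0, hpp, hcone⟩ := hE'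
  have hH5 := finrank_tangent hS hV hp0
  set H := LinearMap.ker (S.T p p) with hH
  have hpH : p ∈ H := hpp
  obtain ⟨C, hC⟩ := (span ℂ {p}).exists_isCompl
  have hC := hC.symm
  set W := C ⊓ H with hW
  have hsp : span ℂ {p} ≤ H := span_le.mpr (Set.singleton_subset_iff.mpr hpH)
  have hWp : W ⊔ span ℂ {p} = H := by
    rw [hW, sup_comm, ← sup_inf_assoc_of_le _ hsp, sup_comm, hC.sup_eq_top, top_inf_eq]
  have hWd : Disjoint W (span ℂ {p}) := hC.disjoint.mono_left inf_le_left
  have hW4 : finrank ℂ W = 4 := by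
    have h1 := Submodule.finrank_sup_add_finrank_inf_eq W (span ℂ {p})
    rw [hWp, hWd.eq_bot, finrank_bot, finrank_span_singleton hp0, hH5] at h1
    omega
  have hsm : (S.comap W.subtype).Smooth := base_smooth hS hE hWp hWd
  obtain ⟨L, hL2, hLI⟩ := line_any hline hW4 hsm
  set L' := L.map W.subtype with hL'
  have hL'2 : finrank ℂ L' = 2 := by
    rw [hL', ← hL2]
    exact (LinearEquiv.finrank_eq (L.equivMapOfInjective W.subtype
      (Submodule.injective_subtype W))).symm
  have hL'W : L' ≤ W := Submodule.map_subtype_le W L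
  have hpL' : p ∉ L' := by
    intro h
    exact hp0 ((Submodule.disjoint_def.mp hWd) p (hL'W h) (mem_span_singleton_self p))
  refine ⟨L' ⊔ span ℂ {p}, ?_, ?_, mem_sup_right (mem_span_singleton_self p)⟩
  · rw [finrank_sup_single hpL', hL'2]
  · intro u hu
    obtain ⟨a, ha, z, hz, rfl⟩ := mem_sup.mp hu
    obtain ⟨c, rfl⟩ := mem_span_singleton.mp hz
    have haH : S.T p p a = 0 := (hL'W ha).2
    have haa : S.T a a a = 0 := by
      obtain ⟨x, hx, rfl⟩ := Submodule.mem_map.mp ha
      exact hLI x hx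
    have h1 := S.cube_add 1 c a p
    rw [one_smul] at h1
    rw [h1, haa, hpp, S.s13 a p p, haH, ← S.cyc p a a, hcone a a haH haH]
    ring

end Vale.Agent.P287.R2.H946
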