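import Vale.Agent.P287.R2.H992.Good

/-!
P287 (helper946): four linear forms in two variables whose cubes sum to zero cancel in pairs
(row S2a, sharpness of 28).
-/

namespace Vale.Agent.P287.R2.H946

open Module Submodule

/-- the coefficients -/
lemma four_coeffs {a b c d : ℂ} (h1 : 1 + a ^ 3 + c ^ 3 = 0) (h2 : a ^ 2 * b + c ^ 2 * d = 0)
    (h3 : a * b ^ 2 + c * d ^ 2 = 0) (h4 : 1 + b ^ 3 + d ^ 3 = 0) :
    (b = 0 ∧ c = 0 ∧ 1 + a ^ 3 = 0 ∧ 1 + d ^ 3 = 0) ∨
      (a = 0 ∧ d = 0 ∧ 1 + b ^ 3 = 0 ∧ 1 + c ^ 3 = 0) := by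
  have hpr : a ^ 2 * b = 0 ∧ a * b ^ 2 = 0 := by
    by_cases hdet : a * d - b * c = 0
    · constructor
      · linear_combination a ^ 2 * b * h1 - a ^ 3 * h2 + a ^ 2 * c ^ 2 * hdet
      · linear_combination a * b ^ 2 * h4 - b ^ 3 * h3 - b ^ 2 * d ^ 2 * hdet
    · constructor
      · have h5 : (a ^ 2 * b) * (a * d - b * c) = 0 := by
          linear_combination a * d * h2 - a * c * h3
        exact (mul_eq_zero.mp h5).resolve_right hdet
      · have h5 : (a * b ^ 2) * (a * d - b * c) = 0 := by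
          linear_combination b * d * h2 - b * c * h3
        exact (mul_eq_zero.mp h5).resolve_right hdet
  have hcd : c ^ 2 * d = 0 := by linear_combination h2 - hpr.1
  by_cases ha : a = 0
  · right
    have hc : c ≠ 0 := by
      rintro rfl
      rw [ha] at h1
      norm_num at h1
    have hd : d = 0 := (mul_eq_zero.mp hcd).resolve_left (pow_ne_zero 2 hc)
    refine ⟨ha, hd, ?_, ?_⟩
    · rw [hd] at h4; linear_combination h4
    · rw [ha] at h1; linear_combination h1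
  · left
    have hb : b = 0 := (mul_eq_zero.mp hpr.1).resolve_left (pow_ne_zero 2 ha)
    have hd : d ≠ 0 := by
      rintro rfl
      rw [hb] at h4
      norm_num at h4
    have hc : c = 0 := pow_eq_zero_iff (two_ne_zero) |>.mp ((mul_eq_zero.mp hcd).resolve_right hd)
    refine ⟨hb, hc, ?_, ?_⟩
    · rw [hc] at h1; linear_combination h1
    · rw [hb] at h4; linear_combination h4

lemma exists_perm : ∀ i j : Fin 4, i ≠ j → ∃ τ : Equiv.Perm (Fin 4), τ 0 = i ∧ τ 1 = j := by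
  decide

lemma perm_a : ∃ ρ : Equiv.Perm (Fin 4), ρ 0 = 0 ∧ ρ 1 = 2 ∧ ρ 2 = 1 ∧ ρ 3 = 3 := by decide

lemma perm_b : ∃ ρ : Equiv.Perm (Fin 4), ρ 0 = 0 ∧ ρ 1 = 3 ∧ ρ 2 = 1 ∧ ρ 3 = 2 := by decide

/-- **ROW S2a.** -/
theorem row_S2a {W : Type*} [AddCommGroup W] [Module ℂ W] [FiniteDimensional ℂ W]
    (hW : finrank ℂ W = 2) (y : Fin 4 → W →ₗ[ℂ] ℂ) (hinj : ∀ x, (∀ i, y i x = 0) → x = 0)
    (h : ∀ x, ∑ i, y i x ^ 3 = 0) :
    ∃ σ : Equiv.Perm (Fin 4), (∀ x, y (σ 0) x ^ 3 + y (σ 1) x ^ 3 = 0) ∧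
      ∀ x, y (σ 2) x ^ 3 + y (σ 3) x ^ 3 = 0 := by
  have hnt : Nontrivial W := Module.nontrivial_of_finrank_pos (R := ℂ) (by omega)
  obtain ⟨z, hz⟩ := exists_ne (0 : W)
  obtain ⟨i, hi⟩ : ∃ i, y i z ≠ 0 := by
    by_contra hcon
    push Not at hcon
    exact hz (hinj z hcon)
  have hyi : y i ≠ 0 := fun h0 => hi (by rw [h0]; rfl)
  have hk : finrank ℂ (LinearMap.ker (y i)) + 1 = finrank ℂ W :=
    Module.Dual.finrank_ker_add_one_of_ne_zero (f := y i) hyi
  have hk1 : finrank ℂ (LinearMap.ker (y i)) = 1 := by omega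
  obtain ⟨⟨v0, hv0⟩, hv0n, hspan⟩ := finrank_eq_one_iff'.mp hk1
  have hv00 : v0 ≠ 0 := fun h0 => hv0n (Subtype.ext h0)
  obtain ⟨j, hj⟩ : ∃ j, y j v0 ≠ 0 := by
    by_contra hcon
    push Not at hcon
    exact hv00 (hinj v0 hcon)
  have hij : i ≠ j := by
    rintro rfl
    exact hj hv0
  set v : W := (y j v0)⁻¹ • v0 with hv
  have hiv : y i v = 0 := by
    rw [hv, map_smul, show y i v0 = 0 from hv0, smul_zero]
  have hjv : y j v = 1 := by
    rw [hv, map_smul, smul_eq_mul, inv_mul_cancel₀ hj]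
  set u : W := (y i z)⁻¹ • z - (y j ((y i z)⁻¹ • z)) • v with hu
  have hiu : y i u = 1 := by
    rw [hu, map_sub, map_smul, map_smul, hiv, smul_eq_mul, inv_mul_cancel₀ hi, smul_zero, sub_zero]
  have hju : y j u = 0 := by
    rw [hu, map_sub, map_smul _ _ v, hjv, smul_eq_mul, mul_one, sub_self]
  have dec : ∀ x, x = y i x • u + y j x • v := by
    intro x
    have h1 : x - (y i x • u + y j x • v) ∈ LinearMap.ker (y i) := by
      rw [LinearMap.mem_ker, map_sub, map_add, map_smul, map_smul, hiu, hiv]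
      simp
    obtain ⟨c, hc⟩ := hspan ⟨_, h1⟩
    have hc' : c • v0 = x - (y i x • u + y j x • v) := congrArg Subtype.val hc
    have h2 : y j (c • v0) = 0 := by
      rw [hc', map_sub, map_add, map_smul, map_smul, hju, hjv]
      simp
    rw [map_smul, smul_eq_mul] at h2
    have h3 : c = 0 := (mul_eq_zero.mp h2).resolve_right hj
    rw [h3, zero_smul] at hc'
    exact (sub_eq_zero.mp hc'.symm)
  have val : ∀ m x, y m x = y i x * y m u + y j x * y m v := by
    intro m x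
    conv_lhs => rw [dec x]
    rw [map_add, map_smul, map_smul, smul_eq_mul, smul_eq_mul]
  obtain ⟨τ, hτ0, hτ1⟩ := exists_perm i j hij
  have sum : ∀ x, y i x ^ 3 + y j x ^ 3 + y (τ 2) x ^ 3 + y (τ 3) x ^ 3 = 0 := by
    intro x
    have h1 := h x
    rw [← Equiv.sum_comp τ, Fin.sum_univ_four, hτ0, hτ1] at h1
    exact h1
  set k := τ 2
  set l := τ 3
  have s1 := sum u
  have s2 := sum v
  have s3 := sum (u + v)
  have s4 := sum (u - v)
  rw [hiu, hju] at s1
  rw [hiv, hjv] at s2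
  simp only [map_add, map_sub, hiu, hju, hiv, hjv] at s3 s4
  rcases four_coeffs (a := y k u) (b := y k v) (c := y l u) (d := y l v)
    (by linear_combination s1) (by linear_combination (1 / 6 : ℂ) * (s3 - s4) - (1 / 3 : ℂ) * s2)
    (by linear_combination (1 / 6 : ℂ) * (s3 + s4) - (1 / 3 : ℂ) * s1)
    (by linear_combination s2) with ⟨hb, hc, ha, hd⟩ | ⟨ha, hd, hb, hc⟩
  · obtain ⟨ρ, r0, r1, r2, r3⟩ := perm_a
    refine ⟨ρ.trans τ, ?_, ?_⟩
    · intro x
      simp only [Equiv.trans_apply, r0, r1]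
      rw [hτ0]
      change y i x ^ 3 + y k x ^ 3 = 0
      rw [val k x, hb]
      linear_combination y i x ^ 3 * ha
    · intro x
      simp only [Equiv.trans_apply, r2, r3]
      rw [hτ1]
      change y j x ^ 3 + y l x ^ 3 = 0
      rw [val l x, hc]
      linear_combination y j x ^ 3 * hd
  · obtain ⟨ρ, r0, r1, r2, r3⟩ := perm_b
    refine ⟨ρ.trans τ, ?_, ?_⟩
    · intro x
      simp only [Equiv.trans_apply, r0, r1]
      rw [hτ0]
      change y i x ^ 3 + y l x ^ 3 = 0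
      rw [val l x, hd]
      linear_combination y i x ^ 3 * hc
    · intro x
      simp only [Equiv.trans_apply, r2, r3]
      rw [hτ1]
      change y j x ^ 3 + y k x ^ 3 = 0
      rw [val k x, ha]
      linear_combination y j x ^ 3 * hb

end Vale.Agent.P287.R2.H946
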