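import Vale.Agent.P287.R2.H992.Good

/-!
P287 (helper946): if the quadric residual to a plane in a three-space has rank at most two, the
three-space contains another plane of the cubic (row A2 of the sharp bound).
-/

namespace Vale.Agent.P287.R2.H946

open Module Submodule Matrix
open Vale.Agent.P287.R2.H248
open Vale.Agent.P287.R2.H622
open Vale.Agent.P287.R2.H992

/-- three independent vectors among four -/
lemma pick {W : Type*} [AddCommGroup W] [Module ℂ W] [FiniteDimensional ℂ W] (v : Fin 4 → W)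
    (h : 3 ≤ finrank ℂ (span ℂ (Set.range v))) :
    ∃ f : Fin 3 → Fin 4, LinearIndependent ℂ fun i => v (f i) := by
  obtain ⟨g, hg, -, hli⟩ := exists_fun_fin_finrank_span_eq ℂ (Set.range v)
  choose f hf using hg
  refine ⟨fun i => f (Fin.castLE h i), ?_⟩
  have h1 : (fun i : Fin 3 => v (f (Fin.castLE h i))) = fun i => g (Fin.castLE h i) := by
    funext i
    exact hf _
  rw [h1]
  exact hli.comp _ (Fin.castLE_injective h)

/-- the minors of size three and the rank -/
lemma rank_le_two {M : Matrix (Fin 4) (Fin 4) ℂ} (h : Min3 M) : M.rank ≤ 2 := by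
  by_contra hcon
  have h1 : 3 ≤ finrank ℂ (span ℂ (Set.range M.row)) := by
    rw [← M.rank_eq_finrank_span_row]; omega
  obtain ⟨f, hf⟩ := pick M.row h1
  have hf' : LinearIndependent ℂ (M.submatrix f id).row := hf
  have h2 := hf'.rank_matrix
  rw [Matrix.rank_eq_finrank_span_cols, Fintype.card_fin] at h2
  obtain ⟨g, hg⟩ := pick (M.submatrix f id).col h2.ge
  have hg' : LinearIndependent ℂ (M.submatrix f g).col := hg
  rw [Matrix.linearIndependent_cols_iff_isUnit, Matrix.isUnit_iff_isUnit_det, h f g] at hg'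
  exact not_isUnit_zero hg'

lemma two_le_ker {M : Matrix (Fin 4) (Fin 4) ℂ} (h : Min3 M) :
    2 ≤ finrank ℂ (LinearMap.ker M.mulVecLin) := by
  have h1 := LinearMap.finrank_range_add_finrank_ker M.mulVecLin
  have h2 := rank_le_two h
  rw [Matrix.rank] at h2
  rw [Module.finrank_fin_fun] at h1
  omega

variable {V : Type*} [AddCommGroup V] [Module ℂ V]

/-- coordinates on the span of `e 0, e 1, e 2` and `w` -/
noncomputable def phi (e : Fin 3 → V) (w : V) : (Fin 4 → ℂ) →ₗ[ℂ] V :=
  Fintype.linearCombination ℂ ![e 0, e 1, e 2, w]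

lemma phi_apply (e : Fin 3 → V) (w : V) (x : Fin 4 → ℂ) :
    phi e w x = (x 0 • e 0 + x 1 • e 1 + x 2 • e 2) + x 3 • w := by
  simp [phi, Fintype.linearCombination_apply, Fin.sum_univ_four]

lemma cube_phi (S : Tri V) {P : Submodule ℂ V} (hP : S.Iso P) {e : Fin 3 → V}
    (he : ∀ i, e i ∈ P) (w : V) (x : Fin 4 → ℂ) :
    S.T (phi e w x) (phi e w x) (phi e w x) = x 3 / 2 * (x ⬝ᵥ (MM S e w).mulVec x) := by
  have hp : x 0 • e 0 + x 1 • e 1 + x 2 • e 2 ∈ P :=
    P.add_mem (P.add_mem (P.smul_mem _ (he 0)) (P.smul_mem _ (he 1))) (P.smul_mem _ (he 2))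
  have h1 := S.cube_add 1 (x 3) (x 0 • e 0 + x 1 • e 1 + x 2 • e 2) w
  rw [one_smul, ← phi_apply, hP _ hp] at h1
  rw [h1]
  simp only [map_add, map_smul, LinearMap.add_apply, LinearMap.smul_apply, smul_eq_mul]
  simp [MM, Matrix.mulVec, dotProduct, Fin.sum_univ_four]
  ring

theorem row_A2 [FiniteDimensional ℂ V] {S : Tri V} (hV : finrank ℂ V = 6) (hS : S.Smooth)
    {P : Submodule ℂ V} (hP : Pl S P) (e : Fin 3 → V) (he : span ℂ (Set.range e) = P) {w : V}
    (hw : w ∉ P) (h : Min3 (MM S e w)) : Good S P w := by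
  have heP : ∀ i, e i ∈ P := fun i => by
    rw [← he]; exact subset_span ⟨i, rfl⟩
  set M := MM S e w with hM
  have hsym : Mᵀ = M := by
    rw [hM]
    ext i j
    fin_cases i <;> fin_cases j <;> simp [MM, S.s12]
  have hli : LinearIndependent ℂ e := by
    rw [linearIndependent_iff_card_eq_finrank_span, Set.finrank, he, hP.1, Fintype.card_fin]
  have hinj : Function.Injective (phi e w) := by
    rw [← LinearMap.ker_eq_bot, LinearMap.ker_eq_bot']
    intro x hx
    rw [phi_apply] at hx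
    have hp : x 0 • e 0 + x 1 • e 1 + x 2 • e 2 ∈ P :=
      P.add_mem (P.add_mem (P.smul_mem _ (heP 0)) (P.smul_mem _ (heP 1))) (P.smul_mem _ (heP 2))
    have h3 : x 3 = 0 := by
      by_contra h3
      apply hw
      have h4 : x 3 • w = -(x 0 • e 0 + x 1 • e 1 + x 2 • e 2) := by
        rw [eq_neg_iff_add_eq_zero, add_comm]; exact hx
      have h5 : x 3 • w ∈ P := by rw [h4]; exact P.neg_mem hp
      exact (P.smul_mem_iff h3).mp h5
    rw [h3, zero_smul, add_zero] at hx
    have h6 := Fintype.linearIndependent_iff.mp hli (fun i => x i.castSucc) (by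
      rw [Fin.sum_univ_three]; exact hx)
    funext i
    fin_cases i
    · exact h6 0
    · exact h6 1
    · exact h6 2
    · exact h3
  -- the kernel
  set K := LinearMap.ker M.mulVecLin with hK
  have hK2 : 2 ≤ finrank ℂ K := two_le_ker h
  have hk : ∃ k1 ∈ K, k1 ≠ 0 := by
    by_contra hcon
    push Not at hcon
    rw [(Submodule.eq_bot_iff K).mpr hcon, finrank_bot] at hK2
    omega
  obtain ⟨k1, hk1, hk10⟩ := hk
  have h1 : ¬ K ≤ span ℂ {k1} := by
    intro h
    have := Submodule.finrank_mono h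
    rw [finrank_span_singleton hk10] at this
    omega
  obtain ⟨k2, hk2, hk20⟩ := Set.not_subset.mp h1
  have f2 := finrank_sup_single hk20
  rw [finrank_span_singleton hk10] at f2
  have h4 : finrank ℂ (Fin 4 → ℂ) = 4 := Module.finrank_fin_fun ℂ
  obtain ⟨c1, hc1⟩ := exists_not_mem (U := span ℂ {k1} ⊔ span ℂ {k2}) (by omega)
  have f3 := finrank_sup_single hc1
  obtain ⟨c2, hc2⟩ := exists_not_mem (U := span ℂ {k1} ⊔ span ℂ {k2} ⊔ span ℂ {c1}) (by omega)
  set U := span ℂ {k1} ⊔ span ℂ {k2} with hU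
  have hUK : U ≤ K := by
    refine sup_le ?_ ?_ <;> rw [span_singleton_le_iff_mem] <;> assumption
  obtain ⟨s, r, hsr, hq⟩ := quad_zero (c1 ⬝ᵥ M.mulVec c1) (c1 ⬝ᵥ M.mulVec c2) (c2 ⬝ᵥ M.mulVec c2)
  set c := s • c1 + r • c2 with hc
  have hsy : ∀ x y : Fin 4 → ℂ, x ⬝ᵥ M.mulVec y = y ⬝ᵥ M.mulVec x := by
    intro x y
    rw [Matrix.dotProduct_mulVec, ← Matrix.mulVec_transpose, hsym, dotProduct_comm]
  have hcU : c ∉ U := by
    intro hcu
    by_cases hr : r = 0
    · have hs : s ≠ 0 := by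
        rcases hsr with h | h
        · exact h
        · exact absurd hr h
      rw [hc, hr, zero_smul, add_zero] at hcu
      exact hc1 ((U.smul_mem_iff hs).mp hcu)
    · apply hc2
      have h5 : r • c2 = c - s • c1 := by rw [hc]; abel
      have h6 : r • c2 ∈ U ⊔ span ℂ {c1} := by
        rw [h5]
        apply Submodule.sub_mem
        · exact Submodule.mem_sup_left hcu
        · exact Submodule.mem_sup_right (Submodule.smul_mem _ _ (mem_span_singleton_self c1))
      exact ((U ⊔ span ℂ {c1}).smul_mem_iff hr).mp h6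
  have hcc : c ⬝ᵥ M.mulVec c = 0 := by
    rw [hc]
    simp only [Matrix.mulVec_add, Matrix.mulVec_smul, add_dotProduct, dotProduct_add,
      smul_dotProduct, dotProduct_smul, smul_eq_mul]
    rw [hsy c2 c1]
    linear_combination hq
  have f4 := finrank_sup_single hcU
  rw [f2] at f4
  have hA : ∀ x ∈ U ⊔ span ℂ {c}, x ⬝ᵥ M.mulVec x = 0 := by
    intro x hx
    obtain ⟨u, hu, z, hz, rfl⟩ := mem_sup.mp hx
    obtain ⟨t, rfl⟩ := mem_span_singleton.mp hz
    have hu0 : M.mulVec u = 0 := hUK hu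
    simp only [Matrix.mulVec_add, Matrix.mulVec_smul, add_dotProduct, dotProduct_add,
      smul_dotProduct, dotProduct_smul, smul_eq_mul, hu0, dotProduct_zero, hsy u c, hcc]
    ring
  refine ⟨(U ⊔ span ℂ {c}).map (phi e w), ⟨?_, ?_⟩, ?_, ?_⟩
  · rw [← (Submodule.equivMapOfInjective (phi e w) hinj (U ⊔ span ℂ {c})).finrank_eq, f4]
  · intro u hu
    obtain ⟨x, hx, rfl⟩ := Submodule.mem_map.mp hu
    rw [cube_phi S hP.2 heP, ← hM, hA x hx, mul_zero]
  · rintro _ ⟨x, -, rfl⟩
    rw [phi_apply]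
    apply Submodule.add_mem_sup
    · exact P.add_mem (P.add_mem (P.smul_mem _ (heP 0)) (P.smul_mem _ (heP 1)))
        (P.smul_mem _ (heP 2))
    · exact Submodule.smul_mem _ _ (mem_span_singleton_self w)
  · intro hAP
    obtain ⟨v, hv, hvw⟩ := not_all hV hS hP hw
    apply hvw
    have hv1 := hv
    rw [← hAP] at hv1
    obtain ⟨x, hx, hxv⟩ := Submodule.mem_map.mp hv1
    have hx3 : x 3 = 0 := by
      by_contra h3
      apply hw
      have hp : x 0 • e 0 + x 1 • e 1 + x 2 • e 2 ∈ P :=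
        P.add_mem (P.add_mem (P.smul_mem _ (heP 0)) (P.smul_mem _ (heP 1)))
          (P.smul_mem _ (heP 2))
      rw [phi_apply] at hxv
      have h5 : x 3 • w = v - (x 0 • e 0 + x 1 • e 1 + x 2 • e 2) := by rw [← hxv]; abel
      have h6 : x 3 • w ∈ P := by rw [h5]; exact P.sub_mem hv hp
      exact (P.smul_mem_iff h3).mp h6
    have h7 := hA x hx
    have h8 : x ⬝ᵥ M.mulVec x = 6 * S.T v v w := by
      rw [← hxv, phi_apply, hx3, zero_smul, add_zero, hM]
      simp only [map_add, map_smul, LinearMap.add_apply, LinearMap.smul_apply, smul_eq_mul]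
      simp [MM, Matrix.mulVec, dotProduct, Fin.sum_univ_four, hx3]
      ring
    rw [h7] at h8
    simpa using h8.symm

end Vale.Agent.P287.R2.H946
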