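import Mathlib

/-!
P287: two polynomials in three variables without constant terms have a common zero different
from `0`.
-/

namespace Vale.Agent.P287.R2.H946

open MvPolynomial

/-- The substitution of `0` for the first `j` variables. -/
noncomputable def kill (j : ℕ) : MvPolynomial (Fin 3) ℂ →ₐ[ℂ] MvPolynomial (Fin 3) ℂ :=
  aeval fun i => if (i : ℕ) < j then 0 else X i

/-- The ideal of the first `j` variables. -/
noncomputable def Q (j : ℕ) : Ideal (MvPolynomial (Fin 3) ℂ) := RingHom.ker (kill j).toRingHom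

instance (j : ℕ) : (Q j).IsPrime := RingHom.ker_isPrime _

lemma mem_Q {j : ℕ} {F : MvPolynomial (Fin 3) ℂ} : F ∈ Q j ↔ kill j F = 0 := Iff.rfl

lemma Q_lt {j : ℕ} (hj : j < 3) : Q j < Q (j + 1) := by
  refine lt_of_le_of_ne ?_ ?_
  · intro F hF
    rw [mem_Q] at hF ⊢
    have h : (kill (j + 1)).comp (kill j) = kill (j + 1) := by
      apply MvPolynomial.algHom_ext
      intro i
      rw [AlgHom.comp_apply]
      unfold kill
      rw [aeval_X, aeval_X]
      by_cases hi : (i : ℕ) < j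
      · rw [if_pos hi, map_zero, if_pos (by omega)]
      · rw [if_neg hi, aeval_X]
    rw [← h, AlgHom.comp_apply, hF, map_zero]
  · intro h
    have h1 : (X ⟨j, hj⟩ : MvPolynomial (Fin 3) ℂ) ∈ Q (j + 1) := by
      rw [mem_Q, kill, aeval_X, if_pos (Nat.lt_succ_self j)]
    rw [← h, mem_Q, kill, aeval_X, if_neg (lt_irrefl _)] at h1
    exact X_ne_zero _ h1

lemma le_height : (3 : ℕ∞) ≤ (Q 3).height := by
  have h0 := Ideal.height_add_one_le_of_lt_of_isPrime (Q_lt (j := 0) (by norm_num))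
  have h1 := Ideal.height_add_one_le_of_lt_of_isPrime (Q_lt (j := 1) (by norm_num))
  have h2 := Ideal.height_add_one_le_of_lt_of_isPrime (Q_lt (j := 2) (by norm_num))
  calc (3 : ℕ∞) = 0 + 1 + 1 + 1 := by norm_num
    _ ≤ (Q 0).height + 1 + 1 + 1 := by gcongr; exact bot_le
    _ ≤ (Q 1).height + 1 + 1 := by gcongr
    _ ≤ (Q 2).height + 1 := by gcongr
    _ ≤ _ := h2

lemma mem_Q3 {F : MvPolynomial (Fin 3) ℂ} : F ∈ Q 3 ↔ eval 0 F = 0 := by
  rw [mem_Q]
  have h : kill 3 = (aeval (fun _ => (0 : MvPolynomial (Fin 3) ℂ))) := by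
    unfold kill
    congr 1
    funext i
    rw [if_pos i.2]
  rw [h]
  have h2 : (aeval (fun _ => (0 : MvPolynomial (Fin 3) ℂ)) :
      MvPolynomial (Fin 3) ℂ →ₐ[ℂ] MvPolynomial (Fin 3) ℂ) =
      (Algebra.ofId ℂ (MvPolynomial (Fin 3) ℂ)).comp (aeval (0 : Fin 3 → ℂ)) := by
    apply MvPolynomial.algHom_ext
    intro i
    simp
  rw [h2, AlgHom.comp_apply]
  exact C_eq_zero

/-- Two polynomials in three variables without constant terms have a common zero. -/
theorem exists_common_zero (F G : MvPolynomial (Fin 3) ℂ) (hF : eval 0 F = 0)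
    (hG : eval 0 G = 0) : ∃ x : Fin 3 → ℂ, x ≠ 0 ∧ eval x F = 0 ∧ eval x G = 0 := by
  by_contra hcon
  push Not at hcon
  have hFm : F ∈ Q 3 := mem_Q3.2 hF
  have hGm : G ∈ Q 3 := mem_Q3.2 hG
  have hle : Ideal.span {F, G} ≤ Q 3 := by
    rw [Ideal.span_le]
    rintro x (rfl | rfl)
    · exact hFm
    · exact hGm
  have hrad : Q 3 ≤ (Ideal.span {F, G}).radical := by
    intro f hf
    rw [← vanishingIdeal_zeroLocus_eq_radical (K := ℂ)]
    intro x hx
    have h1 : x = 0 := by
      by_contra hx0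
      refine hcon x hx0 ?_ ?_
      · exact hx F (Ideal.subset_span (Set.mem_insert _ _))
      · exact hx G (Ideal.subset_span (Set.mem_insert_of_mem _ rfl))
    rw [h1]
    exact mem_Q3.1 hf
  have hmin : Q 3 ∈ (Ideal.span {F, G}).minimalPrimes := by
    refine ⟨⟨inferInstance, hle⟩, ?_⟩
    rintro P ⟨hP, hPI⟩ -
    exact hrad.trans (hP.radical_le_iff.2 hPI)
  have h1 := Ideal.height_le_card_of_mem_minimalPrimes_span (Set.toFinite {F, G}) hmin
  have h2 : ({F, G} : Set (MvPolynomial (Fin 3) ℂ)).ncard ≤ 2 := by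
    refine (Set.ncard_insert_le F {G}).trans ?_
    rw [Set.ncard_singleton]
  have h3 : (3 : ℕ∞) ≤ 2 := by
    calc (3 : ℕ∞) ≤ _ := le_height
      _ ≤ _ := h1
      _ ≤ _ := by exact_mod_cast h2
  exact absurd h3 (by norm_num)

end Vale.Agent.P287.R2.H946
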