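import Vale.Agent.P287.R2.H248.Surface
import Vale.Agent.P287.R2.H946.Zero

/-!
P287: flexes of smooth plane cubics.
-/

namespace Vale.Agent.P287.R2.H946

open Module Submodule Vale.Agent.P287.R2.H248 Vale.Agent.P287.R2.H248.Tri

variable {V : Type*} [AddCommGroup V] [Module ℂ V] {S : Tri V}

open MvPolynomial in
/-- A smooth plane cubic has a flex. -/
theorem exists_flex [FiniteDimensional ℂ V] (hV : finrank ℂ V = 3) (hS : S.Smooth) :
    ∃ p k : V, p ≠ 0 ∧ k ∉ span ℂ {p} ∧ S.T p p p = 0 ∧ ∀ w, S.T p k w = 0 := by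
  let b : Basis (Fin 3) ℂ V := Module.finBasisOfFinrankEq ℂ V hV
  let F : MvPolynomial (Fin 3) ℂ :=
    ∑ i, X i * ∑ j, X j * ∑ l, X l * C (S.T (b i) (b j) (b l))
  let M : Matrix (Fin 3) (Fin 3) (MvPolynomial (Fin 3) ℂ) :=
    Matrix.of fun i j => ∑ l, X l * C (S.T (b l) (b i) (b j))
  have hv : ∀ x : Fin 3 → ℂ, b.equivFun.symm x = ∑ i, x i • b i := fun x =>
    b.equivFun_symm_apply x
  have hF : ∀ x, eval x F = S.T (b.equivFun.symm x) (b.equivFun.symm x) (b.equivFun.symm x) := by
    intro x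
    rw [hv]
    simp only [F, map_sum, map_mul, eval_X, eval_C, LinearMap.sum_apply, map_smul,
      LinearMap.smul_apply, smul_eq_mul]
    refine Finset.sum_congr rfl fun i _ => ?_
    congr 1
    refine Finset.sum_congr rfl fun j _ => ?_
    congr 1
    refine Finset.sum_congr rfl fun l _ => ?_
    rw [S.s13]
  have hM : ∀ x, (eval x).mapMatrix M =
      Matrix.of fun i j => S.T (b.equivFun.symm x) (b i) (b j) := by
    intro x
    ext i j
    rw [hv]
    simp only [M, RingHom.mapMatrix_apply, Matrix.map_apply, Matrix.of_apply, map_sum, map_mul,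
      eval_X, eval_C, LinearMap.sum_apply, map_smul, LinearMap.smul_apply, smul_eq_mul]
  have hG : ∀ x, eval x M.det =
      (Matrix.of fun i j => S.T (b.equivFun.symm x) (b i) (b j)).det := by
    intro x
    rw [RingHom.map_det, hM]
  obtain ⟨x, hx0, hx1, hx2⟩ := exists_common_zero F M.det
    (by rw [hF, map_zero, map_zero])
    (by
      rw [hG, map_zero, map_zero]
      exact Matrix.det_zero)
  rw [hF] at hx1
  rw [hG] at hx2
  obtain ⟨y, hy0, hy⟩ := Matrix.exists_mulVec_eq_zero_iff.2 hx2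
  set p := b.equivFun.symm x with hp
  set k := b.equivFun.symm y with hk
  have hp0 : p ≠ 0 := fun h => hx0 (b.equivFun.symm.map_eq_zero_iff.1 h)
  have hk0 : k ≠ 0 := fun h => hy0 (b.equivFun.symm.map_eq_zero_iff.1 h)
  have hpk : ∀ w, S.T p k w = 0 := by
    have h1 : S.T p k = 0 := by
      apply b.ext
      intro i
      rw [S.s23, hk, hv, map_sum, LinearMap.zero_apply]
      have h2 := congrFun hy i
      rw [Matrix.mulVec, dotProduct] at h2
      simp only [Matrix.of_apply, Pi.zero_apply] at h2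
      rw [← h2]
      refine Finset.sum_congr rfl fun j _ => ?_
      rw [map_smul, smul_eq_mul, mul_comm]
    intro w
    rw [h1, LinearMap.zero_apply]
  refine ⟨p, k, hp0, ?_, hx1, hpk⟩
  intro h
  obtain ⟨c, hc⟩ := mem_span_singleton.1 h
  have hc0 : c ≠ 0 := by
    rintro rfl
    rw [zero_smul] at hc
    exact hk0 hc.symm
  apply hp0
  apply hS
  intro w
  have h1 := hpk w
  rw [← hc, map_smul, LinearMap.smul_apply, smul_eq_mul] at h1
  exact (mul_eq_zero.1 h1).resolve_left hc0

/-- A smooth plane cubic does not contain a line. -/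
lemma flex_ne (hS : S.Smooth) {p k m : V}
    (hp : p ≠ 0) (hk : k ∉ span ℂ {p}) (hm : ∀ w, ∃ x y z : ℂ, w = x • p + y • k + z • m)
    (hpp : S.T p p p = 0) (hpk : ∀ w, S.T p k w = 0) : S.T k k k ≠ 0 := by
  intro hkk
  obtain ⟨s, r, hsr, hquad⟩ := quad_zero (S.T p p m) (S.T p k m) (S.T k k m)
  have h0 : s • p + r • k = 0 := by
    apply hS
    intro w
    obtain ⟨x, y, z, rfl⟩ := hm w
    have h1 : S.T (s • p + r • k) (s • p + r • k) p = 0 := by
      rw [S.sq_add, hpp, hpk, S.s23 k k p, S.s12 k p k, hpk]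
      ring
    have h2 : S.T (s • p + r • k) (s • p + r • k) k = 0 := by
      rw [S.sq_add, hkk, hpk, S.s23 p p k, hpk]
      ring
    have h3 : S.T (s • p + r • k) (s • p + r • k) m = 0 := by
      rw [S.sq_add]
      exact hquad
    rw [map_add, map_add, map_smul, map_smul, map_smul, h1, h2, h3]
    simp
  obtain ⟨a1, a2⟩ := pair_eq_zero hp hk h0
  rcases hsr with h | h
  · exact h a1
  · exact h a2

/-- The coordinates of a second flex. -/
lemma second_scalar {al c : ℂ} (A B : ℂ) (hal : al ≠ 0) (hc : c ≠ 0) :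
    ∃ s t y : ℂ, c * s ^ 2 = -al * y ∧ 2 * s * t * c + A = al * y ^ 2 ∧
      3 * t ^ 2 * c + B = -al * y ^ 3 := by
  by_cases hA : A = 0
  · obtain ⟨t, ht⟩ := IsAlgClosed.exists_pow_nat_eq (-B / (3 * c)) (n := 2) (by norm_num)
    refine ⟨0, t, 0, by ring, by rw [hA]; ring, ?_⟩
    rw [ht]
    field_simp
    ring
  · obtain ⟨y, hy⟩ : ∃ y : ℂ, al ^ 2 * y ^ 4 + 6 * al * A * y ^ 2 + 4 * al * B * y - 3 * A ^ 2 = 0 := by
      let P : Polynomial ℂ := Polynomial.C (al ^ 2) * Polynomial.X ^ 4 +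
        Polynomial.C (6 * al * A) * Polynomial.X ^ 2 + Polynomial.C (4 * al * B) * Polynomial.X +
        Polynomial.C (-3 * A ^ 2)
      have hdeg : P.natDegree = 4 := by
        have h2 : al ^ 2 ≠ 0 := pow_ne_zero 2 hal
        simp only [P]
        compute_degree!
      have hdeg' : P.degree ≠ 0 := by
        intro h
        have := Polynomial.natDegree_eq_zero_iff_degree_le_zero.2 h.le
        omega
      obtain ⟨y, hy⟩ := IsAlgClosed.exists_root P hdeg'
      refine ⟨y, ?_⟩
      simp only [P, Polynomial.IsRoot.def, Polynomial.eval_add, Polynomial.eval_mul,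
        Polynomial.eval_C, Polynomial.eval_pow, Polynomial.eval_X] at hy
      linear_combination hy
    have hy0 : y ≠ 0 := by
      rintro rfl
      apply hA
      have h1 : A ^ 2 = 0 := by linear_combination (-1 / 3 : ℂ) * hy
      exact pow_eq_zero_iff (two_ne_zero) |>.1 h1
    obtain ⟨s, hs⟩ := IsAlgClosed.exists_pow_nat_eq (-al * y / c) (n := 2) (by norm_num)
    have hs2 : c * s ^ 2 = -al * y := by
      rw [hs]
      field_simp
    have hs0 : s ≠ 0 := by
      rintro rfl
      have h1 : al * y = 0 := by linear_combination hs2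
      exact (mul_ne_zero hal hy0) h1
    refine ⟨s, (al * y ^ 2 - A) / (2 * s * c), y, hs2, ?_, ?_⟩
    · field_simp
      ring
    · have h1 : 3 * ((al * y ^ 2 - A) / (2 * s * c)) ^ 2 * c =
          3 * (al * y ^ 2 - A) ^ 2 / (4 * (c * s ^ 2)) := by
        field_simp
        ring
      rw [h1, hs2]
      field_simp
      linear_combination hy

/-- **Two flexes.** A smooth plane cubic is `a ^ 3 y ^ 3 + x z (..)` in a suitable basis. -/
theorem exists_flex_basis [FiniteDimensional ℂ V] (hV : finrank ℂ V = 3) (hS : S.Smooth) :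
    ∃ (b : Fin 3 → V) (a : ℂ), LinearIndependent ℂ b ∧ a ≠ 0 ∧
      S.T (b 0) (b 0) (b 0) = 0 ∧ S.T (b 0) (b 0) (b 1) = 0 ∧ S.T (b 0) (b 1) (b 1) = 0 ∧
      S.T (b 1) (b 1) (b 1) = a ^ 3 ∧
      S.T (b 2) (b 2) (b 2) = 0 ∧ S.T (b 2) (b 2) (b 1) = 0 ∧ S.T (b 2) (b 1) (b 1) = 0 := by
  obtain ⟨p, k, hp0, hkp, hppp, hpk⟩ := exists_flex hV hS
  have hU2 : finrank ℂ ↥(span ℂ {p} ⊔ span ℂ {k}) = 2 := by
    rw [finrank_sup_single hkp, finrank_span_singleton hp0]
  obtain ⟨m₀, hm₀⟩ : ∃ m, m ∉ span ℂ {p} ⊔ span ℂ {k} := by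
    apply exists_not_mem
    rw [hU2, hV]
    norm_num
  have htop : span ℂ {p} ⊔ span ℂ {k} ⊔ span ℂ {m₀} = ⊤ := by
    apply Submodule.eq_top_of_finrank_eq
    rw [finrank_sup_single hm₀, hU2, hV]
  have hdec : ∀ w : V, ∃ x y z : ℂ, w = x • p + y • k + z • m₀ := by
    intro w
    have hw : w ∈ span ℂ {p} ⊔ span ℂ {k} ⊔ span ℂ {m₀} := by rw [htop]; trivial
    obtain ⟨v, hv, z', hz, rfl⟩ := mem_sup.mp hw
    obtain ⟨x', hx, y', hy, rfl⟩ := mem_sup.mp hv
    obtain ⟨x, rfl⟩ := mem_span_singleton.mp hx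
    obtain ⟨y, rfl⟩ := mem_span_singleton.mp hy
    obtain ⟨z, rfl⟩ := mem_span_singleton.mp hz
    exact ⟨x, y, z, rfl⟩
  have hkp' : ∀ w, S.T k p w = 0 := fun w => by rw [S.s12]; exact hpk w
  have hpw : ∀ w, S.T p w k = 0 := fun w => by rw [S.s23]; exact hpk w
  have hkw : ∀ w, S.T k w p = 0 := fun w => by rw [S.s23]; exact hkp' w
  have hwp : ∀ w, S.T w p k = 0 := fun w => by rw [S.s12]; exact hpw w
  have hwk : ∀ w, S.T w k p = 0 := fun w => by rw [S.s12]; exact hkw w
  have hal : S.T k k k ≠ 0 := flex_ne hS hp0 hkp hdec hppp hpk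
  have hc : S.T p p m₀ ≠ 0 := by
    intro hc
    apply hp0
    apply hS
    intro w
    obtain ⟨x, y, z, rfl⟩ := hdec w
    rw [map_add, map_add, map_smul, map_smul, map_smul, hppp, hpw, hc]
    simp
  set al := S.T k k k with hal'
  set c := S.T p p m₀ with hc'
  -- the third vector
  obtain ⟨m, hm, hppm, hpmm, hkkm⟩ : ∃ m : V, m ∉ span ℂ {p} ⊔ span ℂ {k} ∧ S.T p p m = c ∧
      S.T p m m = 0 ∧ S.T k k m = 0 := by
    refine ⟨m₀ + (-S.T p m₀ m₀ / (2 * c)) • p + (-S.T k k m₀ / al) • k, ?_, ?_, ?_, ?_⟩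
    · intro h
      apply hm₀
      have h1 : m₀ = m₀ + (-S.T p m₀ m₀ / (2 * c)) • p + (-S.T k k m₀ / al) • k -
          ((-S.T p m₀ m₀ / (2 * c)) • p + (-S.T k k m₀ / al) • k) := by abel
      rw [h1]
      refine Submodule.sub_mem _ h (Submodule.add_mem _ ?_ ?_)
      · exact Submodule.smul_mem _ _ (mem_sup_left (mem_span_singleton_self p))
      · exact Submodule.smul_mem _ _ (mem_sup_right (mem_span_singleton_self k))
    · rw [map_add, map_add, map_smul, map_smul, hppp, hpw]
      simp [hc']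
    · simp only [map_add, map_smul, LinearMap.add_apply, LinearMap.smul_apply, smul_eq_mul, hppp,
        hpk, hkp', hpw, hkw, hwp, hwk]
      rw [S.s23 p m₀ p, ← hc']
      field_simp
      ring
    · simp only [map_add, map_smul, smul_eq_mul, hkw]
      rw [← hal']
      field_simp
      ring
  obtain ⟨s, t, y, e1, e2, e3⟩ := second_scalar (S.T k m m) (S.T m m m) hal hc
  obtain ⟨a, ha⟩ := IsAlgClosed.exists_pow_nat_eq al (n := 3) (by norm_num)
  have ha0 : a ≠ 0 := by
    rintro rfl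
    apply hal
    rw [← ha]
    norm_num
  have hpmp : S.T p m p = c := by rw [S.s23]; exact hppm
  have hmpp : S.T m p p = c := by rw [S.s12]; exact hpmp
  have hmpm : S.T m p m = 0 := by rw [S.s12]; exact hpmm
  have hmmp : S.T m m p = 0 := by rw [S.s23]; exact hmpm
  have hkmk : S.T k m k = 0 := by rw [S.s23]; exact hkkm
  have hmkk : S.T m k k = 0 := by rw [S.s12]; exact hkmk
  have hmkm : S.T m k m = S.T k m m := S.s12 m k m
  have hmmk : S.T m m k = S.T k m m := by rw [S.s23]; exact hmkm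
  refine ⟨![p, s • p + k, y • (s • p + k) + (t • p + m)], a, ?_, ha0, ?_⟩
  · rw [Fintype.linearIndependent_iff]
    intro g hg
    rw [Fin.sum_univ_three] at hg
    simp only [Matrix.cons_val_zero, Matrix.cons_val_one, Matrix.cons_val_two, Matrix.head_cons,
      Matrix.tail_cons, Matrix.cons_val] at hg
    have h2 : g 2 = 0 := by
      by_contra h2
      apply hm
      have h3 : g 2 • m = -((g 0 + g 1 * s + g 2 * (y * s + t)) • p + (g 1 + g 2 * y) • k) := by
        rw [eq_neg_iff_add_eq_zero, ← hg]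
        module
      have h4 : g 2 • m ∈ span ℂ {p} ⊔ span ℂ {k} := by
        rw [h3]
        refine Submodule.neg_mem _ (Submodule.add_mem _ ?_ ?_)
        · exact Submodule.smul_mem _ _ (mem_sup_left (mem_span_singleton_self p))
        · exact Submodule.smul_mem _ _ (mem_sup_right (mem_span_singleton_self k))
      exact (Submodule.smul_mem_iff _ h2).1 h4
    rw [h2, zero_smul, add_zero] at hg
    have h3 : (g 0 + g 1 * s) • p + g 1 • k = 0 := by
      rw [← hg]
      module
    obtain ⟨h4, h5⟩ := pair_eq_zero hp0 hkp h3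
    rw [h5, zero_mul, add_zero] at h4
    intro i
    fin_cases i
    · exact h4
    · exact h5
    · exact h2
  · simp only [Matrix.cons_val_zero, Matrix.cons_val_one, Matrix.cons_val_two, Matrix.head_cons,
      Matrix.tail_cons, Matrix.cons_val]
    simp only [map_add, map_smul, LinearMap.add_apply, LinearMap.smul_apply, smul_eq_mul, hppp,
      hpk, hkp', hpw, hkw, hwp, hwk, hppm, hpmm, hkkm, hpmp, hmpp, hmpm, hmmp, hkmk, hmkk, hmkm,
      hmmk, ← hal']
    refine ⟨trivial, ?_, ?_, ?_, ?_, ?_, ?_⟩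
    · ring
    · ring
    · linear_combination -ha
    · linear_combination 3 * y ^ 2 * e1 + 3 * y * e2 + e3
    · linear_combination 2 * y * e1 + e2
    · linear_combination e1

end Vale.Agent.P287.R2.H946
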