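import Vale.Agent.P287.R2.H992.Good

/-!
P287 (helper946): the net of conics residual to a plane of a smooth cubic fourfold has a smooth
member (row N of the sharp bound).
-/

namespace Vale.Agent.P287.R2.H946

open Module Submodule Matrix
open Vale.Agent.P287.R2.H248
open Vale.Agent.P287.R2.H622

/-- the determinant of a symmetric matrix of size three -/
def dd (a b c d e f : ℂ) : ℂ := a * d * f + 2 * b * c * e - a * e ^ 2 - d * c ^ 2 - f * b ^ 2

/-- the derivative of the determinant -/
def dv (a b c d e f a' b' c' d' e' f' : ℂ) : ℂ :=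
  a' * (d * f - e ^ 2) + d' * (a * f - c ^ 2) + f' * (a * d - b ^ 2) +
    2 * b' * (c * e - b * f) + 2 * c' * (b * e - c * d) + 2 * e' * (b * c - a * e)

lemma dd_add (t a b c d e f a' b' c' d' e' f' : ℂ) :
    dd (a + t * a') (b + t * b') (c + t * c') (d + t * d') (e + t * e') (f + t * f') =
      dd a b c d e f + t * dv a b c d e f a' b' c' d' e' f' +
      t ^ 2 * dv a' b' c' d' e' f' a b c d e f + t ^ 3 * dd a' b' c' d' e' f' := by
  unfold dd dv
  ring

variable {V : Type*} [AddCommGroup V] [Module ℂ V]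

/-- three vectors: the value of the determinant at `w` -/
def dw (S : Tri V) (x y z w : V) : ℂ :=
  dd (S.T x x w) (S.T x y w) (S.T x z w) (S.T y y w) (S.T y z w) (S.T z z w)

lemma dv_zero {S : Tri V} {x y z : V} (h : ∀ w, dw S x y z w = 0) (w w' : V) :
    dv (S.T x x w) (S.T x y w) (S.T x z w) (S.T y y w) (S.T y z w) (S.T z z w)
      (S.T x x w') (S.T x y w') (S.T x z w') (S.T y y w') (S.T y z w') (S.T z z w') = 0 := by
  have h0 := h w
  have h0' := h w'
  have h1 := h (w + (1 : ℂ) • w')
  have h2 := h (w + (-1 : ℂ) • w')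
  unfold dw at h0 h0' h1 h2
  simp only [map_add, map_smul, smul_eq_mul] at h1 h2
  rw [dd_add, h0, h0'] at h1 h2
  linear_combination (1 / 2 : ℂ) * (h1 - h2)

lemma quad3 (S : Tri V) (x y z w : V) (a b c : ℂ) :
    S.T (a • x + b • y + c • z) (a • x + b • y + c • z) w =
      a ^ 2 * S.T x x w + b ^ 2 * S.T y y w + c ^ 2 * S.T z z w + 2 * a * b * S.T x y w +
        2 * a * c * S.T x z w + 2 * b * c * S.T y z w := by
  simp only [map_add, map_smul, LinearMap.add_apply, LinearMap.smul_apply, smul_eq_mul]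
  rw [S.s12 y x w, S.s12 z x w, S.s12 z y w]
  ring

/-- the determinant of the net does not vanish identically -/
theorem dw_ne {S : Tri V} (hS : S.Smooth) {x y z : V}
    (hli : ∀ a b c : ℂ, a • x + b • y + c • z = 0 → a = 0 ∧ b = 0 ∧ c = 0) :
    ∃ w, dw S x y z w ≠ 0 := by
  by_contra hcon
  push Not at hcon
  have hdv := dv_zero hcon
  -- the adjugate matrices vanish
  have key : ∀ a b c : ℂ, (∀ w', a ^ 2 * S.T x x w' + b ^ 2 * S.T y y w' + c ^ 2 * S.T z z w' +
      2 * a * b * S.T x y w' + 2 * a * c * S.T x z w' + 2 * b * c * S.T y z w' = 0) →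
      a = 0 ∧ b = 0 ∧ c = 0 := by
    intro a b c h
    apply hli
    apply hS
    intro w'
    rw [quad3]
    exact h w'
  have adj : ∀ w, S.T y y w * S.T z z w - S.T y z w ^ 2 = 0 ∧
      S.T x x w * S.T z z w - S.T x z w ^ 2 = 0 ∧
      S.T x x w * S.T y y w - S.T x y w ^ 2 = 0 ∧
      S.T x z w * S.T y z w - S.T x y w * S.T z z w = 0 ∧
      S.T x y w * S.T y z w - S.T x z w * S.T y y w = 0 ∧
      S.T x y w * S.T x z w - S.T x x w * S.T y z w = 0 := by
    intro w
    have h0 := hcon w
    have h1 := hdv w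
    unfold dw dd at h0
    unfold dv at h1
    generalize S.T x x w = a at *
    generalize S.T x y w = b at *
    generalize S.T x z w = c at *
    generalize S.T y y w = d at *
    generalize S.T y z w = e at *
    generalize S.T z z w = f at *
    have c0 := key (d * f - e ^ 2) (c * e - b * f) (b * e - c * d) (fun w' => by
      linear_combination (d * f - e ^ 2) * h1 w' +
        (- f * S.T y y w' - d * S.T z z w' + 2 * e * S.T y z w') * h0)
    have c1 := key (c * e - b * f) (a * f - c ^ 2) (b * c - a * e) (fun w' => by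
      linear_combination (a * f - c ^ 2) * h1 w' +
        (- f * S.T x x w' - a * S.T z z w' + 2 * c * S.T x z w') * h0)
    have c2 := key (b * e - c * d) (b * c - a * e) (a * d - b ^ 2) (fun w' => by
      linear_combination (a * d - b ^ 2) * h1 w' +
        (- d * S.T x x w' - a * S.T y y w' + 2 * b * S.T x y w') * h0)
    exact ⟨c0.1, c1.2.1, c2.2.2, c0.2.1, c0.2.2, c1.2.2⟩
  -- first order
  have pol : ∀ w w', S.T y y w * S.T z z w' + S.T y y w' * S.T z z w -
        2 * S.T y z w * S.T y z w' = 0 ∧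
      S.T x x w * S.T z z w' + S.T x x w' * S.T z z w - 2 * S.T x z w * S.T x z w' = 0 ∧
      S.T x x w * S.T y y w' + S.T x x w' * S.T y y w - 2 * S.T x y w * S.T x y w' = 0 := by
    intro w w'
    have h0 := adj w
    have h0' := adj w'
    have h1 := adj (w + w')
    simp only [map_add] at h1
    refine ⟨?_, ?_, ?_⟩
    · linear_combination h1.1 - h0.1 - h0'.1
    · linear_combination h1.2.1 - h0.2.1 - h0'.2.1
    · linear_combination h1.2.2.1 - h0.2.2.1 - h0'.2.2.1
  have hx : ∀ w, S.T x x w = 0 := by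
    intro w
    have h0 := (adj w).2.2.1
    have h2 := key (S.T x y w) (-S.T x x w) 0 (fun w' => by
      have h1 := (pol w w').2.2
      linear_combination S.T x x w * h1 - S.T x x w' * h0)
    simpa using h2.2.1
  have hx0 := hS x hx
  have := hli 1 0 0 (by rw [hx0]; simp)
  exact one_ne_zero this.1

/-- **ROW N.** Some conic of the net is smooth. -/
theorem row_N [FiniteDimensional ℂ V] {S : Tri V} (_hV : finrank ℂ V = 6) (hS : S.Smooth)
    {P : Submodule ℂ V} (hP : Pl S P) (e : Fin 3 → V) (he : span ℂ (Set.range e) = P)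
    (k : Fin 3 → V) (hk : P ⊔ span ℂ (Set.range k) = ⊤) :
    ∃ a : Fin 3 → ℂ, (Matrix.of fun i j => S.T (e i) (e j) (∑ l, a l • k l)).det ≠ 0 := by
  have heP : ∀ i, e i ∈ P := fun i => by
    rw [← he]; exact subset_span ⟨i, rfl⟩
  have hli : LinearIndependent ℂ e := by
    rw [linearIndependent_iff_card_eq_finrank_span, Set.finrank, he, hP.1, Fintype.card_fin]
  obtain ⟨w, hw⟩ := dw_ne (S := S) hS (x := e 0) (y := e 1) (z := e 2) (fun a b c h => by
    have h6 := Fintype.linearIndependent_iff.mp hli ![a, b, c] (by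
      rw [Fin.sum_univ_three]; exact h)
    exact ⟨h6 0, h6 1, h6 2⟩)
  have hwt : w ∈ P ⊔ span ℂ (Set.range k) := by rw [hk]; trivial
  obtain ⟨p, hp, u, hu, rfl⟩ := mem_sup.mp hwt
  obtain ⟨a, rfl⟩ := (Submodule.mem_span_range_iff_exists_fun ℂ).mp hu
  refine ⟨a, ?_⟩
  have h0 : ∀ i j, S.T (e i) (e j) (p + ∑ l, a l • k l) = S.T (e i) (e j) (∑ l, a l • k l) := by
    intro i j
    rw [map_add, hP.2.three (heP i) (heP j) hp, zero_add]
  intro hdet
  apply hw
  unfold dw dd
  simp only [h0]
  rw [Matrix.det_fin_three] at hdet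
  simp only [Matrix.of_apply] at hdet
  rw [S.s12 (e 1) (e 0), S.s12 (e 2) (e 0), S.s12 (e 2) (e 1)] at hdet
  linear_combination hdet

end Vale.Agent.P287.R2.H946
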