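import Vale.Agent.P287.R2.H946.Flex
import Vale.Agent.P287.R2.H248.Polar

/-!
P287: a smooth cubic fourfold `f(x₀, x₁, x₂) + g(x₃, x₄, x₅) = 0` contains two disjoint planes.
-/

namespace Vale.Agent.P287.R2.H946

open Module Submodule Vale.Agent.P287.R2.H248 Vale.Agent.P287.R2.H248.Tri

variable {V : Type*} [AddCommGroup V] [Module ℂ V] {S : Tri V}

/-- The form splits. -/
def Splits (S : Tri V) (A B : Submodule ℂ V) : Prop :=
  ∀ a ∈ A, ∀ b ∈ B, S.T a a b = 0 ∧ S.T a b b = 0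

lemma Splits.aab {A B : Submodule ℂ V} (h : Splits S A B) {a a' b : V} (ha : a ∈ A) (ha' : a' ∈ A)
    (hb : b ∈ B) : S.T a a' b = 0 := by
  have h1 := (h _ (A.add_mem (A.smul_mem 1 ha) (A.smul_mem 1 ha')) b hb).1
  rw [S.sq_add, (h a ha b hb).1, (h a' ha' b hb).1] at h1
  linear_combination (1 / 2 : ℂ) * h1

lemma Splits.symm {A B : Submodule ℂ V} (h : Splits S A B) : Splits S B A := by
  intro b hb a ha
  refine ⟨?_, ?_⟩
  · rw [S.cyc, S.cyc]
    exact (h a ha b hb).2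
  · rw [S.cyc]
    exact (h a ha b hb).1

lemma Splits.cube {A B : Submodule ℂ V} (h : Splits S A B) {a b : V} (ha : a ∈ A) (hb : b ∈ B) :
    S.T (a + b) (a + b) (a + b) = S.T a a a + S.T b b b := by
  have h1 := S.cube_add 1 1 a b
  rw [one_smul, one_smul, (h a ha b hb).1, (h a ha b hb).2] at h1
  rw [h1]
  ring

lemma Splits.smooth {A B : Submodule ℂ V} (h : Splits S A B) (hAB : A ⊔ B = ⊤) (hS : S.Smooth) :
    (S.comap A.subtype).Smooth := by
  rintro ⟨v, hv⟩ hvan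
  have h1 : v = 0 := by
    apply hS
    intro w
    have hw : w ∈ A ⊔ B := by rw [hAB]; trivial
    obtain ⟨a, ha, b, hb, rfl⟩ := mem_sup.mp hw
    have h2 : S.T v v a = 0 := hvan ⟨a, ha⟩
    rw [map_add, h2, (h v hv b hb).1, add_zero]
  exact Subtype.ext h1

/-- The planes. -/
lemma Splits.plane {A B : Submodule ℂ V} (h : Splits S A B) {p u p' u' : V} (hp : p ∈ A)
    (hu : u ∈ A) (hp' : p' ∈ B) (hu' : u' ∈ B) (h1 : S.T p p p = 0) (h2 : S.T p p u = 0)
    (h3 : S.T p u u = 0) (h1' : S.T p' p' p' = 0) (h2' : S.T p' p' u' = 0)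
    (h3' : S.T p' u' u' = 0) {c d : ℂ} (h4 : c ^ 3 * S.T u u u + d ^ 3 * S.T u' u' u' = 0) :
    S.Iso (span ℂ {p, p', c • u + d • u'}) := by
  intro w hw
  obtain ⟨x, y, z, rfl⟩ := mem_span_triple.mp hw
  have e : x • p + y • p' + z • (c • u + d • u') =
      (x • p + (z * c) • u) + (y • p' + (z * d) • u') := by module
  rw [e, h.cube (A.add_mem (A.smul_mem _ hp) (A.smul_mem _ hu))
    (B.add_mem (B.smul_mem _ hp') (B.smul_mem _ hu')), S.cube_add, S.cube_add, h1, h2, h3, h1',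
    h2', h3']
  linear_combination z ^ 3 * h4

lemma le_of_basis {A W : Submodule ℂ V} [FiniteDimensional ℂ V] {b : Fin 3 → A}
    (hb : LinearIndependent ℂ b) (hA : finrank ℂ A = 3) (h0 : (b 0 : V) ∈ W) (h1 : (b 1 : V) ∈ W)
    (h2 : (b 2 : V) ∈ W) : A ≤ W := by
  intro a ha
  have h3 : span ℂ (Set.range b) = ⊤ := by
    apply hb.span_eq_top_of_card_eq_finrank'
    rw [Fintype.card_fin, hA]
  have h4 : (⟨a, ha⟩ : A) ∈ span ℂ (Set.range b) := by rw [h3]; trivial
  obtain ⟨c, hc⟩ := (mem_span_range_iff_exists_fun ℂ).1 h4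
  rw [Fin.sum_univ_three] at hc
  have h5 : a = c 0 • (b 0 : V) + c 1 • (b 1 : V) + c 2 • (b 2 : V) := by
    have := congrArg Subtype.val hc
    exact this.symm
  rw [h5]
  exact W.add_mem (W.add_mem (W.smul_mem _ h0) (W.smul_mem _ h1)) (W.smul_mem _ h2)

lemma finrank_span_triple_le [FiniteDimensional ℂ V] (a b c : V) :
    finrank ℂ ↥(span ℂ {a, b, c}) ≤ 3 := by
  have h1 : finrank ℂ ↥(span ℂ (({a, b, c} : Set V))) ≤ ({a, b, c} : Set V).ncard := by
    classical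
    have h2 := finrank_span_finset_le_card (R := ℂ) ({a, b, c} : Finset V)
    rw [Set.finrank] at h2
    have h3 : ((({a, b, c} : Finset V) : Set V)) = {a, b, c} := by simp
    rw [h3] at h2
    refine h2.trans (le_of_eq ?_)
    rw [← h3, Set.ncard_coe_finset]
  refine h1.trans ?_
  refine (Set.ncard_insert_le _ _).trans ?_
  have := Set.ncard_insert_le b {c}
  rw [Set.ncard_singleton] at this
  omega

/-- **A sum of two ternary cubics: two disjoint planes.** -/
theorem Splits.two_planes [FiniteDimensional ℂ V] {A B : Submodule ℂ V} (h : Splits S A B)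
    (hS : S.Smooth) (hAB : IsCompl A B) (hA : finrank ℂ A = 3) (hB : finrank ℂ B = 3) :
    ∃ P Q : Submodule ℂ V, finrank ℂ P = 3 ∧ S.Iso P ∧ finrank ℂ Q = 3 ∧ S.Iso Q ∧
      Disjoint P Q := by
  have hV : finrank ℂ V = 6 := by
    have h1 := Submodule.finrank_add_eq_of_isCompl hAB
    omega
  obtain ⟨b, a, hb, ha, b1, b2, b3, b4, b5, b6, b7⟩ :=
    exists_flex_basis hA (h.smooth hAB.sup_eq_top hS)
  obtain ⟨b', a', hb', ha', b1', b2', b3', b4', b5', b6', b7'⟩ :=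
    exists_flex_basis hB (h.symm.smooth (by rw [sup_comm]; exact hAB.sup_eq_top) hS)
  simp only [comap_T, Submodule.subtype_apply] at b1 b2 b3 b4 b5 b6 b7 b1' b2' b3' b4' b5' b6' b7'
  obtain ⟨om, hom, hom1⟩ : ∃ om : ℂ, om ^ 3 = 1 ∧ om ≠ 1 := by
    have h1 := Complex.isPrimitiveRoot_exp 3 (by norm_num)
    exact ⟨_, h1.pow_eq_one, h1.ne_one (by norm_num)⟩
  set P := span ℂ {(b 0 : V), (b' 0 : V), a' • (b 1 : V) + (-a) • (b' 1 : V)} with hP
  set Q := span ℂ {(b 2 : V), (b' 2 : V), (om * a') • (b 1 : V) + (-a) • (b' 1 : V)} with hQ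
  have hPI : S.Iso P := by
    refine h.plane (b 0).2 (b 1).2 (b' 0).2 (b' 1).2 b1 b2 b3 b1' b2' b3' ?_
    rw [b4, b4']
    ring
  have hQI : S.Iso Q := by
    refine h.plane (b 2).2 (b 1).2 (b' 2).2 (b' 1).2 b5 b6 b7 b5' b6' b7' ?_
    rw [b4, b4']
    linear_combination a' ^ 3 * a ^ 3 * hom
  have hp1 : (b 0 : V) ∈ P := subset_span (by simp)
  have hp2 : (b' 0 : V) ∈ P := subset_span (by simp)
  have hp3 : a' • (b 1 : V) + (-a) • (b' 1 : V) ∈ P := subset_span (by simp)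
  have hq1 : (b 2 : V) ∈ Q := subset_span (by simp)
  have hq2 : (b' 2 : V) ∈ Q := subset_span (by simp)
  have hq3 : (om * a') • (b 1 : V) + (-a) • (b' 1 : V) ∈ Q := subset_span (by simp)
  have hu : (b 1 : V) ∈ P ⊔ Q := by
    have h1 : ((om - 1) * a') • (b 1 : V) ∈ P ⊔ Q := by
      have h2 := (P ⊔ Q).sub_mem (mem_sup_right hq3) (mem_sup_left hp3)
      have h3 : (om * a') • (b 1 : V) + (-a) • (b' 1 : V) -
          (a' • (b 1 : V) + (-a) • (b' 1 : V)) = ((om - 1) * a') • (b 1 : V) := by module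
      rwa [h3] at h2
    exact ((P ⊔ Q).smul_mem_iff (mul_ne_zero (sub_ne_zero.2 hom1) ha')).1 h1
  have hu' : (b' 1 : V) ∈ P ⊔ Q := by
    have h1 : (-a) • (b' 1 : V) ∈ P ⊔ Q := by
      have h2 := (P ⊔ Q).sub_mem (mem_sup_left hp3) ((P ⊔ Q).smul_mem a' hu)
      have h3 : a' • (b 1 : V) + (-a) • (b' 1 : V) - a' • (b 1 : V) = (-a) • (b' 1 : V) := by
        module
      rwa [h3] at h2
    exact ((P ⊔ Q).smul_mem_iff (neg_ne_zero.2 ha)).1 h1
  have htop : P ⊔ Q = ⊤ := by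
    rw [eq_top_iff, ← hAB.sup_eq_top]
    exact sup_le (le_of_basis hb hA (mem_sup_left hp1) hu (mem_sup_right hq1))
      (le_of_basis hb' hB (mem_sup_left hp2) hu' (mem_sup_right hq2))
  have hPle : finrank ℂ P ≤ 3 := finrank_span_triple_le _ _ _
  have hQle : finrank ℂ Q ≤ 3 := finrank_span_triple_le _ _ _
  have hsum := Submodule.finrank_sup_add_finrank_inf_eq P Q
  rw [htop, finrank_top, hV] at hsum
  refine ⟨P, Q, by omega, hPI, by omega, hQI, ?_⟩
  rw [disjoint_iff]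
  apply Submodule.finrank_eq_zero.1
  omega

open MvPolynomial in
/-- **A sum of two ternary cubics: two disjoint planes.** -/
theorem sum_planes {F : MvPolynomial (Fin 6) ℂ} (hF : IsCubicFourfold F) {A B : Submodule ℂ A6}
    (hAB : IsCompl A B) (hA : finrank ℂ A = 3)
    (hsum : ∀ a ∈ A, ∀ b ∈ B, eval (a + b) F = eval a F + eval b F) :
    ∃ P Q, IsPlaneIn F P ∧ IsPlaneIn F Q ∧ Disjoint P Q := by
  have hB : finrank ℂ B = 3 := by
    have h1 := Submodule.finrank_add_eq_of_isCompl hAB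
    have h2 : finrank ℂ A6 = 6 := by simp
    omega
  have hsp : Splits (pol F) A B := by
    intro a ha b hb
    have h1 := hsum a ha b hb
    have h2 := hsum a ha (-b) (B.neg_mem hb)
    rw [← pol_three hF.1, ← pol_three hF.1, ← pol_three hF.1] at h1 h2
    have e1 := (pol F).cube_add 1 1 a b
    have e2 := (pol F).cube_add 1 (-1) a b
    rw [one_smul, one_smul] at e1
    rw [one_smul, neg_smul, one_smul] at e2
    have e3 : (pol F).T (-b) (-b) (-b) = -(pol F).T b b b := by simp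
    rw [e1] at h1
    rw [e2, e3] at h2
    constructor
    · linear_combination (1 / 6 : ℂ) * (h1 - h2)
    · linear_combination (1 / 6 : ℂ) * (h1 + h2)
  obtain ⟨P, Q, h1, h2, h3, h4, h5⟩ := hsp.two_planes (pol_smooth hF) hAB hA hB
  exact ⟨P, Q, ⟨h1, (pol_iso hF.1).1 h2⟩, ⟨h3, (pol_iso hF.1).1 h4⟩, h5⟩

end Vale.Agent.P287.R2.H946
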